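import Vale.Agent.P037.Final

/-!
P037: the polynomial ordered binary matrix-removal conjecture is false.
-/

namespace Vale.Agent.Results.P037.NotPolynomial

open _root_.P037

/-- There is a fixed `15 x 15` binary pattern `H` whose removal bound is not polynomial: there are
arbitrarily large matrices `A` at distance at least `1 / (2 * (5 L + 16) ^ 2)` from being `H`-free
with at most `2 ^ (-L) * n ^ 30` ordered copies of `H`. -/
theorem result :
    ∃ H : Fin 15 → Fin 15 → Bool,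
      (∀ L : ℕ, 1 ≤ L → ∀ n₀ : ℕ, ∃ (n : ℕ) (A : Fin n → Fin n → Bool), 1 ≤ n ∧ n₀ ≤ n ∧
        1 / (2 * (5 * (L : ℝ) + 16) ^ 2) ≤ hdist H A ∧
        (copies H A : ℝ) ≤ 2⁻¹ ^ L * (n : ℝ) ^ (2 * 15)) ∧
      ¬ ∃ c C : ℝ, 0 < c ∧ 0 < C ∧ ∀ n : ℕ, 1 ≤ n → ∀ ε : ℝ, 0 < ε → ε < 1 →
        ∀ A : Fin n → Fin n → Bool, ε ≤ hdist H A →
          c * ε ^ C * (n : ℝ) ^ (2 * 15) ≤ (copies H A : ℝ) :=
  ⟨_root_.P037.H, fun L hL n₀ => hard L hL n₀, not_poly⟩

end Vale.Agent.Results.P037.NotPolynomial
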